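import Vale.Agent.P141.Num

/-! The trilinear Hilbert transform is unbounded at all Hoelder tuples with `r ≤ 0.472`. -/

open scoped ENNReal

namespace Vale.Agent.Results.P141.Unbounded

open Vale.Agent.P141

theorem result :
    (∀ p₁ p₂ p₃ r : ℝ≥0∞, Holder p₁ p₂ p₃ r → r ≤ 59 / 125 → ¬BoundedAt p₁ p₂ p₃ r) ∧
    ∀ p₁ p₂ p₃ r : ℝ≥0∞, Holder p₁ p₂ p₃ r → r ≤ 1 → BoundedAt p₁ p₂ p₃ r →
      ∀ (ι : Type) [Fintype ι] (P : ι → ℝ), (∀ ω, 0 < P ω) → ∑ ω, P ω = 1 → ∀ X T : ι → ℤ,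
        ent P X + r.toReal * (ent P (fun ω => (X ω, T ω)) - ent P X) ≤
          (r / p₁).toReal * ent P (fun ω => X ω - T ω) +
          (r / p₂).toReal * ent P (fun ω => X ω - 2 * T ω) +
          (r / p₃).toReal * ent P (fun ω => X ω - 3 * T ω) +
          r.toReal * max (ent P X) (ent P (fun ω => (X ω, T ω)) - ent P X) :=
  ⟨fun _ _ _ _ => unbounded, fun _ _ _ _ h r1 hb _ _ _ hP h1 =>
    entropy_ineq h.2.2.2.1.ne' r1 hb hP h1⟩

end Vale.Agent.Results.P141.Unbounded
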